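import Mathlib

namespace Vale.Agent.Lib.P201

/-- The part of `α` supported on the fiber `ψ = p`. -/
noncomputable def fiberPart {K G U : Type*} [Semiring K] [DecidableEq U] (ψ : G → U) (p : U)
    (α : MonoidAlgebra K G) : MonoidAlgebra K G :=
  MonoidAlgebra.ofCoeff (α.coeff.filter (fun g => ψ g = p))

theorem fiberPart_coeff {K G U : Type*} [Semiring K] [DecidableEq U] (ψ : G → U) (p : U)
    (α : MonoidAlgebra K G) (g : G) :
    (fiberPart ψ p α).coeff g = if ψ g = p then α.coeff g else 0 := by
  simp [fiberPart, Finsupp.filter_apply]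

theorem fiberPart_support_subset {K G U : Type*} [Semiring K] [DecidableEq U] (ψ : G → U)
    (p : U) (α : MonoidAlgebra K G) :
    (fiberPart ψ p α).coeff.support ⊆ α.coeff.support := by
  intro g hg
  rw [Finsupp.mem_support_iff, fiberPart_coeff] at hg
  rw [Finsupp.mem_support_iff]
  intro h
  apply hg
  rw [h]; simp

/-- The coefficient formula for a product as a double sum over the supports. -/
theorem coeff_mul_sum {K G : Type*} [Semiring K] [Mul G] [DecidableEq G]
    (α β : MonoidAlgebra K G) (x : G) :
    (α * β).coeff x = ∑ g ∈ α.coeff.support, ∑ h ∈ β.coeff.support,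
      if g * h = x then α.coeff g * β.coeff h else 0 := by
  rw [MonoidAlgebra.coeff_mul]
  rfl

/-- The product of two fiber parts, written as a double sum over the full supports. -/
theorem coeff_fiber_mul_sum {K G U : Type*} [Semiring K] [Mul G] [DecidableEq G] [DecidableEq U]
    (ψ : G → U) (p q : U) (α β : MonoidAlgebra K G) (x : G) :
    (fiberPart ψ p α * fiberPart ψ q β).coeff x = ∑ g ∈ α.coeff.support, ∑ h ∈ β.coeff.support,
      if ψ g = p ∧ ψ h = q then (if g * h = x then α.coeff g * β.coeff h else 0) else 0 := by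
  rw [coeff_mul_sum]
  rw [← Finset.sum_subset (fiberPart_support_subset ψ p α)]
  · apply Finset.sum_congr rfl
    intro g hg
    have hg' : ψ g = p := by
      by_contra hne
      rw [Finsupp.mem_support_iff, fiberPart_coeff, if_neg hne] at hg
      exact hg rfl
    rw [← Finset.sum_subset (fiberPart_support_subset ψ q β)]
    · apply Finset.sum_congr rfl
      intro h hh
      have hh' : ψ h = q := by
        by_contra hne
        rw [Finsupp.mem_support_iff, fiberPart_coeff, if_neg hne] at hh
        exact hh rfl
      rw [if_pos (show ψ g = p ∧ ψ h = q from ⟨hg', hh'⟩), fiberPart_coeff, fiberPart_coeff,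
        if_pos hg', if_pos hh']
    · intro h _ hh
      by_cases hq : ψ h = q
      · have : β.coeff h = 0 := by
          have := Finsupp.notMem_support_iff.1 hh
          rwa [fiberPart_coeff, if_pos hq] at this
        rw [if_pos (show ψ g = p ∧ ψ h = q from ⟨hg', hq⟩), this, mul_zero]; simp
      · rw [if_neg (fun hc : ψ g = p ∧ ψ h = q => hq hc.2)]
  · intro g _ hg
    apply Finset.sum_eq_zero
    intro h _
    by_cases hp : ψ g = p
    · have : α.coeff g = 0 := by
        have := Finsupp.notMem_support_iff.1 hg
        rwa [fiberPart_coeff, if_pos hp] at this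
      rw [this, zero_mul]; simp
    · rw [if_neg (fun hc : ψ g = p ∧ ψ h = q => hp hc.1)]

/-- If `ψ` is multiplicative on the supports, `(p, q)` is a unique product for the images of
the supports, and `α * β = 0`, then the product of the fiber parts over `p` and `q` vanishes. -/
theorem fiber_mul_eq_zero {K G U : Type*} [Semiring K] [Mul G] [Mul U] [DecidableEq U]
    (ψ : G → U) (p q : U) (α β : MonoidAlgebra K G)
    (hψ : ∀ g ∈ α.coeff.support, ∀ h ∈ β.coeff.support, ψ (g * h) = ψ g * ψ h)
    (huniq : UniqueMul (α.coeff.support.image ψ) (β.coeff.support.image ψ) p q)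
    (hprod : α * β = 0) : fiberPart ψ p α * fiberPart ψ q β = 0 := by
  classical
  rw [← MonoidAlgebra.coeff_eq_zero]
  ext x
  rw [coeff_fiber_mul_sum, Finsupp.coe_zero, Pi.zero_apply]
  by_cases hex : ∃ g₀ ∈ α.coeff.support, ∃ h₀ ∈ β.coeff.support,
      g₀ * h₀ = x ∧ ψ g₀ = p ∧ ψ h₀ = q
  · obtain ⟨g₀, hg₀, h₀, hh₀, hx, hp, hq⟩ := hex
    have h0 : (α * β).coeff x = 0 := by rw [hprod]; rfl
    rw [coeff_mul_sum] at h0
    refine Eq.trans ?_ h0
    apply Finset.sum_congr rfl
    intro g hg
    apply Finset.sum_congr rfl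
    intro h hh
    by_cases hgh : g * h = x
    · have h1 : ψ g * ψ h = p * q := by
        rw [← hψ g hg h hh, hgh, ← hx, hψ g₀ hg₀ h₀ hh₀, hp, hq]
      have h2 := huniq (Finset.mem_image_of_mem ψ hg) (Finset.mem_image_of_mem ψ hh) h1
      rw [if_pos h2]
    · rw [if_neg hgh]; simp
  · push Not at hex
    apply Finset.sum_eq_zero
    intro g hg
    apply Finset.sum_eq_zero
    intro h hh
    by_cases hc : ψ g = p ∧ ψ h = q
    · rw [if_pos hc, if_neg]
      intro hx
      exact hex g hg h hh hx hc.1 hc.2
    · rw [if_neg hc]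

end Vale.Agent.Lib.P201
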