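import Mathlib

namespace Vale.Agent.Lib.P201

universe u v

theorem int_isJacobsonRing : IsJacobsonRing ℤ := by
  rw [isJacobsonRing_iff_prime_eq]
  intro P hP
  by_cases hbot : P = ⊥
  · subst hbot
    rw [eq_bot_iff]
    intro n hn
    rw [Ideal.jacobson, Ideal.mem_sInf] at hn
    rw [Ideal.mem_bot]
    by_contra hne
    obtain ⟨p, hpn, hp⟩ := Nat.exists_infinite_primes (n.natAbs + 1)
    have hmax : (Ideal.span {(p : ℤ)}).IsMaximal :=
      PrincipalIdealRing.isMaximal_of_irreducible (Nat.prime_iff_prime_int.1 hp).irreducible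
    have hmem := hn ⟨bot_le, hmax⟩
    rw [Ideal.mem_span_singleton] at hmem
    have h1 : p ∣ n.natAbs := Int.natCast_dvd.1 hmem
    have h2 : 0 < n.natAbs := Int.natAbs_pos.2 hne
    have h3 := Nat.le_of_dvd h2 h1
    omega
  · have := hP.isMaximal hbot
    exact Ideal.jacobson_eq_self_of_isMaximal

theorem finite_of_field_of_finite_int (F : Type*) [Field F] [Module.Finite ℤ F] : Finite F := by
  obtain ⟨p, hp⟩ := CharP.exists F
  rcases CharP.char_is_prime_or_zero F p with hprime | hzero
  · have : Fact p.Prime := ⟨hprime⟩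
    let _ : Algebra (ZMod p) F := ZMod.algebra F p
    have : Module.Finite (ZMod p) F := Module.Finite.of_restrictScalars_finite ℤ (ZMod p) F
    exact Module.finite_of_finite (ZMod p)
  · subst hzero
    have : CharZero F := CharP.charP_to_charZero F
    exfalso
    have : Algebra.IsIntegral ℤ F := Algebra.IsIntegral.of_finite ℤ F
    apply Int.not_isField
    apply isField_of_isIntegral_of_isField (S := F)
    · intro a b hab
      simpa using hab
    · exact Field.toIsField F

/-- **Reduction to finite coefficient fields.** If `F[G]` has no zero divisors for every finite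
field `F` (of the same characteristic as `K` when `K` has positive characteristic), then `K[G]`
has no zero divisors. -/
theorem noZeroDivisors_of_finite_fields {G : Type u} [Group G] (K : Type v) [Field K]
    (h : ∀ (F : Type v) [Field F] [Finite F], (ringChar K ≠ 0 → ringChar F = ringChar K) →
      NoZeroDivisors (MonoidAlgebra F G)) : NoZeroDivisors (MonoidAlgebra K G) := by
  classical
  refine ⟨fun {α β} hαβ => ?_⟩
  by_contra hcon
  push Not at hcon
  obtain ⟨hα, hβ⟩ := hcon
  obtain ⟨a, ha⟩ : ∃ a, α.coeff a ≠ 0 := by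
    by_contra hno
    push Not at hno
    exact hα (MonoidAlgebra.coeff_eq_zero.1 (Finsupp.ext hno))
  obtain ⟨b, hb⟩ : ∃ b, β.coeff b ≠ 0 := by
    by_contra hno
    push Not at hno
    exact hβ (MonoidAlgebra.coeff_eq_zero.1 (Finsupp.ext hno))
  let T : Finset K := (α.coeff.support.image α.coeff ∪ β.coeff.support.image β.coeff) ∪
    {(α.coeff a)⁻¹, (β.coeff b)⁻¹}
  let R : Subalgebra ℤ K := Algebra.adjoin ℤ (T : Set K)
  have hFT : Algebra.FiniteType ℤ R :=
    (Subalgebra.fg_iff_finiteType R).1 (Subalgebra.fg_adjoin_finset T)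
  have hmemα : ∀ g, α.coeff g ∈ R := by
    intro g
    by_cases hg : g ∈ α.coeff.support
    · apply Algebra.subset_adjoin
      have : α.coeff g ∈ T := by
        apply Finset.mem_union_left
        apply Finset.mem_union_left
        exact Finset.mem_image_of_mem _ hg
      exact this
    · rw [Finsupp.notMem_support_iff.1 hg]; exact zero_mem R
  have hmemβ : ∀ g, β.coeff g ∈ R := by
    intro g
    by_cases hg : g ∈ β.coeff.support
    · apply Algebra.subset_adjoin
      have : β.coeff g ∈ T := by
        apply Finset.mem_union_left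
        apply Finset.mem_union_right
        exact Finset.mem_image_of_mem _ hg
      exact this
    · rw [Finsupp.notMem_support_iff.1 hg]; exact zero_mem R
  have hinva : (α.coeff a)⁻¹ ∈ R := by
    apply Algebra.subset_adjoin
    have : (α.coeff a)⁻¹ ∈ T := by
      apply Finset.mem_union_right
      simp
    exact this
  have hinvb : (β.coeff b)⁻¹ ∈ R := by
    apply Algebra.subset_adjoin
    have : (β.coeff b)⁻¹ ∈ T := by
      apply Finset.mem_union_right
      simp
    exact this
  obtain ⟨m, hm⟩ := Ideal.exists_maximal R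
  let _ := Ideal.Quotient.field m
  have hFT' : Algebra.FiniteType ℤ (R ⧸ m) :=
    Algebra.FiniteType.of_surjective (Ideal.Quotient.mkₐ ℤ m) Ideal.Quotient.mk_surjective
  have hJ : IsJacobsonRing ℤ := int_isJacobsonRing
  have hMF : Module.Finite ℤ (R ⧸ m) := finite_of_finite_type_of_isJacobsonRing ℤ (R ⧸ m)
  have hfin : Finite (R ⧸ m) := finite_of_field_of_finite_int _
  have hchar : ringChar K ≠ 0 → ringChar (R ⧸ m) = ringChar K := by
    intro hne
    have hprime : (ringChar K).Prime := by
      rcases CharP.char_is_prime_or_zero K (ringChar K) with hp | hz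
      · exact hp
      · exact absurd hz hne
    have h0 : ((ringChar K : ℕ) : R ⧸ m) = 0 := by
      have h1 : ((ringChar K : ℕ) : R) = 0 := by
        apply Subtype.val_injective
        have : (((ringChar K : ℕ) : R) : K) = ((ringChar K : ℕ) : K) := by push_cast; rfl
        rw [this, ringChar.Nat.cast_ringChar]; rfl
      have h2 : ((ringChar K : ℕ) : R ⧸ m) = Ideal.Quotient.mk m ((ringChar K : ℕ) : R) := by
        rw [map_natCast]
      rw [h2, h1, map_zero]
    have hdvd : ringChar (R ⧸ m) ∣ ringChar K := (ringChar.spec (R ⧸ m) (ringChar K)).1 h0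
    rcases (Nat.dvd_prime hprime).1 hdvd with h1 | h1
    · exfalso
      have : ((1 : ℕ) : R ⧸ m) = 0 := by
        rw [← h1]; exact ringChar.Nat.cast_ringChar
      simp at this
    · exact h1
  have hnzd := h (R ⧸ m) hchar
  let ι : R →+* K := R.val.toRingHom
  have hιinj : Function.Injective ι := Subtype.val_injective
  obtain ⟨αR, hαR⟩ : ∃ αR : MonoidAlgebra R G, MonoidAlgebra.mapRingHom G ι αR = α := by
    have : α ∈ Set.range (MonoidAlgebra.map (M := G) (ι : R →+ K)) := by
      rw [MonoidAlgebra.range_map]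
      intro g
      exact ⟨⟨α.coeff g, hmemα g⟩, rfl⟩
    exact this
  obtain ⟨βR, hβR⟩ : ∃ βR : MonoidAlgebra R G, MonoidAlgebra.mapRingHom G ι βR = β := by
    have : β ∈ Set.range (MonoidAlgebra.map (M := G) (ι : R →+ K)) := by
      rw [MonoidAlgebra.range_map]
      intro g
      exact ⟨⟨β.coeff g, hmemβ g⟩, rfl⟩
    exact this
  have hprodR : αR * βR = 0 := by
    have hinj : Function.Injective (MonoidAlgebra.mapRingHom G ι) :=
      MonoidAlgebra.map_injective (ι : R →+ K) hιinj
    apply hinj
    rw [map_mul, hαR, hβR, hαβ, map_zero]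
  let π : R →+* R ⧸ m := Ideal.Quotient.mk m
  have hbar : MonoidAlgebra.mapRingHom G π αR * MonoidAlgebra.mapRingHom G π βR = 0 := by
    rw [← map_mul, hprodR, map_zero]
  rcases hnzd.eq_zero_or_eq_zero_of_mul_eq_zero hbar with h0 | h0
  · have h1 : π (αR.coeff a) = 0 := by
      rw [← MonoidAlgebra.coeff_mapRingHom, h0]; rfl
    have h2 : ι (αR.coeff a) = α.coeff a := by
      rw [← hαR, MonoidAlgebra.coeff_mapRingHom]
    have h3 : αR.coeff a * ⟨(α.coeff a)⁻¹, hinva⟩ = 1 := by
      apply hιinj
      rw [map_mul, h2, map_one]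
      exact mul_inv_cancel₀ ha
    have h4 : π (αR.coeff a) * π ⟨(α.coeff a)⁻¹, hinva⟩ = 1 := by
      rw [← map_mul, h3, map_one]
    rw [h1, zero_mul] at h4
    exact zero_ne_one h4
  · have h1 : π (βR.coeff b) = 0 := by
      rw [← MonoidAlgebra.coeff_mapRingHom, h0]; rfl
    have h2 : ι (βR.coeff b) = β.coeff b := by
      rw [← hβR, MonoidAlgebra.coeff_mapRingHom]
    have h3 : βR.coeff b * ⟨(β.coeff b)⁻¹, hinvb⟩ = 1 := by
      apply hιinj
      rw [map_mul, h2, map_one]
      exact mul_inv_cancel₀ hb
    have h4 : π (βR.coeff b) * π ⟨(β.coeff b)⁻¹, hinvb⟩ = 1 := by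
      rw [← map_mul, h3, map_one]
    rw [h1, zero_mul] at h4
    exact zero_ne_one h4

end Vale.Agent.Lib.P201
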