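import Mathlib
import Vale.Agent.Lib.P201.Fiber

namespace Vale.Agent.Lib.P201

universe u v

/-- Normalisation: translate a zero-divisor pair so that both supports contain `1`. -/
theorem exists_normalized {K : Type v} [Ring K] {G : Type u} [Group G]
    (α β : MonoidAlgebra K G) (hα : α ≠ 0) (hβ : β ≠ 0) (hαβ : α * β = 0) :
    ∃ α' β' : MonoidAlgebra K G, α' * β' = 0 ∧ α'.coeff 1 ≠ 0 ∧ β'.coeff 1 ≠ 0 ∧
      α'.coeff.support.card = α.coeff.support.card ∧
      β'.coeff.support.card = β.coeff.support.card := by
  classical
  have hαne : α.coeff.support.Nonempty := by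
    rw [Finsupp.support_nonempty_iff]
    exact fun h => hα (MonoidAlgebra.coeff_eq_zero.1 h)
  have hβne : β.coeff.support.Nonempty := by
    rw [Finsupp.support_nonempty_iff]
    exact fun h => hβ (MonoidAlgebra.coeff_eq_zero.1 h)
  obtain ⟨a, ha⟩ := hαne
  obtain ⟨b, hb⟩ := hβne
  have hcα : ∀ x, (MonoidAlgebra.single a⁻¹ (1 : K) * α).coeff x = α.coeff (a * x) := by
    intro x
    rw [MonoidAlgebra.coeff_single_mul_apply, inv_inv, one_mul]
  have hcβ : ∀ x, (β * MonoidAlgebra.single b⁻¹ (1 : K)).coeff x = β.coeff (x * b) := by
    intro x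
    rw [MonoidAlgebra.coeff_mul_single_apply, inv_inv, mul_one]
  refine ⟨MonoidAlgebra.single a⁻¹ (1 : K) * α, β * MonoidAlgebra.single b⁻¹ (1 : K),
    ?_, ?_, ?_, ?_, ?_⟩
  · calc MonoidAlgebra.single a⁻¹ (1 : K) * α * (β * MonoidAlgebra.single b⁻¹ (1 : K))
        = MonoidAlgebra.single a⁻¹ (1 : K) * (α * β) * MonoidAlgebra.single b⁻¹ (1 : K) := by
          simp only [mul_assoc]
      _ = 0 := by rw [hαβ, mul_zero, zero_mul]
  · rw [hcα, mul_one]
    exact Finsupp.mem_support_iff.1 ha
  · rw [hcβ, one_mul]
    exact Finsupp.mem_support_iff.1 hb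
  · refine Finset.card_bij (fun x _ => a * x) ?_ ?_ ?_
    · intro x hx
      rw [Finsupp.mem_support_iff, hcα] at hx
      exact Finsupp.mem_support_iff.2 hx
    · intro x _ y _ hxy
      exact mul_left_cancel hxy
    · intro y hy
      refine ⟨a⁻¹ * y, ?_, by simp⟩
      rw [Finsupp.mem_support_iff, hcα, mul_inv_cancel_left]
      exact Finsupp.mem_support_iff.1 hy
  · refine Finset.card_bij (fun x _ => x * b) ?_ ?_ ?_
    · intro x hx
      rw [Finsupp.mem_support_iff, hcβ] at hx
      exact Finsupp.mem_support_iff.2 hx
    · intro x _ y _ hxy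
      exact mul_right_cancel hxy
    · intro y hy
      refine ⟨y * b⁻¹, ?_, by simp⟩
      rw [Finsupp.mem_support_iff, hcβ, inv_mul_cancel_right]
      exact Finsupp.mem_support_iff.1 hy

/-- **Local reduction.** If every finitely generated subgroup `H` of `G` either has a group
algebra without zero divisors or maps nontrivially to a unique-product group, then `K[G]` has
no zero divisors. -/
theorem noZeroDivisors_of_local {K : Type v} [Ring K] [NoZeroDivisors K] {G : Type u} [Group G]
    (h : ∀ H : Subgroup G, H.FG → NoZeroDivisors (MonoidAlgebra K H) ∨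
      ∃ (U : Type u) (_ : Group U) (_ : UniqueProds U) (φ : H →* U), ∃ x : H, φ x ≠ 1) :
    NoZeroDivisors (MonoidAlgebra K G) := by
  classical
  have key : ∀ n : ℕ, ∀ α β : MonoidAlgebra K G,
      α.coeff.support.card + β.coeff.support.card = n → α * β = 0 → α = 0 ∨ β = 0 := by
    intro n
    induction n using Nat.strong_induction_on with
    | _ n ih =>
      intro α β hn hαβ
      by_contra hcon
      push Not at hcon
      obtain ⟨hα, hβ⟩ := hcon
      obtain ⟨α', β', hprod, hα1, hβ1, hcα, hcβ⟩ := exists_normalized α β hα hβ hαβ
      have hn' : α'.coeff.support.card + β'.coeff.support.card = n := by rw [hcα, hcβ, hn]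
      set S : Set G := ↑α'.coeff.support ∪ ↑β'.coeff.support with hS
      have hFG : (Subgroup.closure S).FG :=
        ⟨α'.coeff.support ∪ β'.coeff.support, by rw [hS, Finset.coe_union]⟩
      have hmemα : ∀ g ∈ α'.coeff.support, g ∈ Subgroup.closure S :=
        fun g hg => Subgroup.subset_closure (Or.inl hg)
      have hmemβ : ∀ g ∈ β'.coeff.support, g ∈ Subgroup.closure S :=
        fun g hg => Subgroup.subset_closure (Or.inr hg)
      rcases h (Subgroup.closure S) hFG with hnzd | ⟨U, _, _, φ, x₀, hx₀⟩
      · -- the subgroup algebra has no zero divisors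
        have hinj : Function.Injective ((Subgroup.closure S).subtype) :=
          (Subgroup.closure S).subtype_injective
        have hrα : (↑α'.coeff.support : Set G) ⊆ Set.range ((Subgroup.closure S).subtype) := by
          intro g hg
          exact ⟨⟨g, hmemα g hg⟩, rfl⟩
        have hrβ : (↑β'.coeff.support : Set G) ⊆ Set.range ((Subgroup.closure S).subtype) := by
          intro g hg
          exact ⟨⟨g, hmemβ g hg⟩, rfl⟩
        have e1 := MonoidAlgebra.mapDomain_comapDomain (R := K) hrα hinj
        have e2 := MonoidAlgebra.mapDomain_comapDomain (R := K) hrβ hinj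
        have e3 : MonoidAlgebra.mapDomain ((Subgroup.closure S).subtype)
            (MonoidAlgebra.comapDomain _ hinj α' * MonoidAlgebra.comapDomain _ hinj β')
            = MonoidAlgebra.mapDomain ((Subgroup.closure S).subtype) 0 := by
          rw [MonoidAlgebra.mapDomain_mul, e1, e2, hprod, MonoidAlgebra.mapDomain_zero]
        have e4 := MonoidAlgebra.mapDomain_injective hinj e3
        rcases hnzd.eq_zero_or_eq_zero_of_mul_eq_zero e4 with h0 | h0
        · rw [h0, MonoidAlgebra.mapDomain_zero] at e1
          apply hα1
          rw [← e1]; rfl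
        · rw [h0, MonoidAlgebra.mapDomain_zero] at e2
          apply hβ1
          rw [← e2]; rfl
      · -- a nontrivial homomorphism to a unique-product group
        let ψ : G → U := fun g => if hg : g ∈ Subgroup.closure S then φ ⟨g, hg⟩ else 1
        have hψ : ∀ g (hg : g ∈ Subgroup.closure S), ψ g = φ ⟨g, hg⟩ := by
          intro g hg
          exact dif_pos hg
        have hψmul : ∀ g ∈ Subgroup.closure S, ∀ k ∈ Subgroup.closure S,
            ψ (g * k) = ψ g * ψ k := by
          intro g hg k hk
          rw [hψ g hg, hψ k hk, hψ (g * k) (mul_mem hg hk), ← map_mul]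
          rfl
        have hPne : (α'.coeff.support.image ψ).Nonempty :=
          ⟨ψ 1, Finset.mem_image_of_mem ψ (Finsupp.mem_support_iff.2 hα1)⟩
        have hQne : (β'.coeff.support.image ψ).Nonempty :=
          ⟨ψ 1, Finset.mem_image_of_mem ψ (Finsupp.mem_support_iff.2 hβ1)⟩
        obtain ⟨p, hp, q, hq, huniq⟩ := UniqueProds.uniqueMul_of_nonempty hPne hQne
        have h0 : fiberPart ψ p α' * fiberPart ψ q β' = 0 :=
          fiber_mul_eq_zero ψ p q α' β'
            (fun g hg k hk => hψmul g (hmemα g hg) k (hmemβ k hk)) huniq hprod
        have hα₀ : fiberPart ψ p α' ≠ 0 := by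
          obtain ⟨g, hg, hgp⟩ := Finset.mem_image.1 hp
          intro hzero
          have : (fiberPart ψ p α').coeff g = 0 := by rw [hzero]; rfl
          rw [fiberPart_coeff, if_pos hgp] at this
          exact (Finsupp.mem_support_iff.1 hg) this
        have hβ₀ : fiberPart ψ q β' ≠ 0 := by
          obtain ⟨g, hg, hgq⟩ := Finset.mem_image.1 hq
          intro hzero
          have : (fiberPart ψ q β').coeff g = 0 := by rw [hzero]; rfl
          rw [fiberPart_coeff, if_pos hgq] at this
          exact (Finsupp.mem_support_iff.1 hg) this
        have hle1 := Finset.card_le_card (fiberPart_support_subset ψ p α')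
        have hle2 := Finset.card_le_card (fiberPart_support_subset ψ q β')
        by_cases hlt : (fiberPart ψ p α').coeff.support.card
            + (fiberPart ψ q β').coeff.support.card < n
        · rcases ih _ hlt _ _ rfl h0 with h1 | h1
          · exact hα₀ h1
          · exact hβ₀ h1
        · have heq1 : (fiberPart ψ p α').coeff.support = α'.coeff.support :=
            Finset.eq_of_subset_of_card_le (fiberPart_support_subset ψ p α') (by omega)
          have heq2 : (fiberPart ψ q β').coeff.support = β'.coeff.support :=
            Finset.eq_of_subset_of_card_le (fiberPart_support_subset ψ q β') (by omega)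
          have hallα : ∀ g ∈ α'.coeff.support, ψ g = p := by
            intro g hg
            rw [← heq1, Finsupp.mem_support_iff, fiberPart_coeff] at hg
            by_contra hne
            rw [if_neg hne] at hg
            exact hg rfl
          have hallβ : ∀ g ∈ β'.coeff.support, ψ g = q := by
            intro g hg
            rw [← heq2, Finsupp.mem_support_iff, fiberPart_coeff] at hg
            by_contra hne
            rw [if_neg hne] at hg
            exact hg rfl
          have hψ1 : ψ 1 = 1 := by
            rw [hψ 1 (one_mem _)]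
            exact map_one φ
          have hp1 : p = 1 := by
            rw [← hallα 1 (Finsupp.mem_support_iff.2 hα1), hψ1]
          have hq1 : q = 1 := by
            rw [← hallβ 1 (Finsupp.mem_support_iff.2 hβ1), hψ1]
          have htriv : ∀ (g : G) (hg : g ∈ Subgroup.closure S), φ ⟨g, hg⟩ = 1 := by
            intro g hg
            induction hg using Subgroup.closure_induction with
            | mem x hx =>
              rw [← hψ x (Subgroup.subset_closure hx)]
              rcases hx with hx | hx
              · rw [hallα x hx, hp1]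
              · rw [hallβ x hx, hq1]
            | one => exact map_one φ
            | mul x y hx hy ihx ihy =>
              have : (⟨x * y, mul_mem hx hy⟩ : Subgroup.closure S) = ⟨x, hx⟩ * ⟨y, hy⟩ := rfl
              rw [this, map_mul, ihx, ihy, mul_one]
            | inv x hx ihx =>
              have : (⟨x⁻¹, inv_mem hx⟩ : Subgroup.closure S) = (⟨x, hx⟩ : Subgroup.closure S)⁻¹ :=
                rfl
              rw [this, map_inv, ihx, inv_one]
          exact hx₀ (htriv x₀.1 x₀.2)
  exact ⟨fun {α β} hαβ => key _ α β rfl hαβ⟩

end Vale.Agent.Lib.P201
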