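import Mathlib

namespace Vale.Agent.Lib.P201

/-- Abstract maximum principle: a nonnegative finitely supported function `b` that is
sub-averaging along a nonempty finite family of maps with infinite forward orbits vanishes. -/
theorem maxPrinciple {X ι : Type*} (b : X → ℝ) (hb0 : ∀ x, 0 ≤ b x)
    (hfin : (Function.support b).Finite) (S : Finset ι) (w : ι → ℝ)
    (hw : ∀ s ∈ S, 0 < w s) (φ : ι → X → X) (a₀ : ℝ) (ha : ∑ s ∈ S, w s ≤ a₀) (ha0 : 0 < a₀)
    (hineq : ∀ y, a₀ * b y ≤ ∑ s ∈ S, w s * b (φ s y))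
    (hinj : ∀ s ∈ S, ∀ y, Function.Injective (fun n : ℕ => (φ s)^[n] y)) :
    ∀ x, b x = 0 := by
  by_contra hne
  push Not at hne
  obtain ⟨x₁, hx₁⟩ := hne
  have hne' : hfin.toFinset.Nonempty := ⟨x₁, by simpa using hx₁⟩
  obtain ⟨y₀, hy₀mem, hy₀max⟩ := Finset.exists_max_image hfin.toFinset b hne'
  have hM : 0 < b y₀ := by
    have : b y₀ ≠ 0 := by simpa using hy₀mem
    exact lt_of_le_of_ne (hb0 y₀) (Ne.symm this)
  have hmax : ∀ x, b x ≤ b y₀ := by
    intro x
    by_cases hx : b x = 0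
    · rw [hx]; exact hM.le
    · exact hy₀max x (by simpa using hx)
  -- propagation
  have hprop : ∀ y, b y = b y₀ → ∀ s ∈ S, b (φ s y) = b y₀ := by
    intro y hy s hs
    have h1 : a₀ * b y₀ ≤ ∑ t ∈ S, w t * b (φ t y) := hy ▸ hineq y
    have h2 : ∑ t ∈ S, w t * b (φ t y) ≤ ∑ t ∈ S, w t * b y₀ :=
      Finset.sum_le_sum fun t ht => mul_le_mul_of_nonneg_left (hmax _) (hw t ht).le
    have h3 : ∑ t ∈ S, w t * b y₀ = (∑ t ∈ S, w t) * b y₀ := by rw [Finset.sum_mul]
    have h4 : (∑ t ∈ S, w t) * b y₀ ≤ a₀ * b y₀ := mul_le_mul_of_nonneg_right ha hM.le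
    have h5 : ∑ t ∈ S, (w t * b y₀ - w t * b (φ t y)) = 0 := by
      rw [Finset.sum_sub_distrib]; linarith
    have h6 := (Finset.sum_eq_zero_iff_of_nonneg (fun t ht => by
      have := mul_le_mul_of_nonneg_left (hmax (φ t y)) (hw t ht).le
      linarith)).1 h5 s hs
    have h7 : w s * (b y₀ - b (φ s y)) = 0 := by rw [mul_sub]; exact h6
    rcases mul_eq_zero.1 h7 with h | h
    · exact absurd h (hw s hs).ne'
    · linarith
  rcases S.eq_empty_or_nonempty with hS | ⟨s₁, hs₁⟩
  · have := hineq y₀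
    rw [hS, Finset.sum_empty] at this
    nlinarith
  · have hall : ∀ n : ℕ, b ((φ s₁)^[n] y₀) = b y₀ := by
      intro n
      induction n with
      | zero => rfl
      | succ n ih =>
        rw [Function.iterate_succ_apply']
        exact hprop _ ih s₁ hs₁
    have hsub : Set.range (fun n : ℕ => (φ s₁)^[n] y₀) ⊆ Function.support b := by
      rintro _ ⟨n, rfl⟩
      simp only [Function.mem_support]
      rw [hall n]; exact hM.ne'
    exact (Set.infinite_range_of_injective (hinj s₁ hs₁ y₀)) (hfin.subset hsub)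

end Vale.Agent.Lib.P201
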