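import Mathlib

namespace Vale.Agent.Lib.P201

theorem oneSided_left {K G : Type*} [Ring K] [NoZeroDivisors K] [Group G]
    (α β : MonoidAlgebra K G) (g₀ : G) (hg₀ : α.coeff g₀ ≠ 0)
    (hS : (1 : G) ∉ Subsemigroup.closure
      ((fun g => g₀⁻¹ * g) '' {g : G | α.coeff g ≠ 0 ∧ g ≠ g₀}))
    (hprod : α * β = 0) : β = 0 := by
  classical
  by_contra hβ
  set T := Subsemigroup.closure ((fun g => g₀⁻¹ * g) '' {g : G | α.coeff g ≠ 0 ∧ g ≠ g₀})
    with hT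
  have hne : β.coeff.support.Nonempty := by
    rw [Finsupp.support_nonempty_iff]
    intro h
    exact hβ (MonoidAlgebra.coeff_eq_zero.1 h)
  have hstep : ∀ y ∈ β.coeff.support, ∃ s ∈ T, s⁻¹ * y ∈ β.coeff.support := by
    intro y hy
    have h1 : (α * β).coeff (g₀ * y) = 0 := by rw [hprod]; rfl
    have hg₀mem : g₀ ∈ α.coeff.support := Finsupp.mem_support_iff.2 hg₀
    rw [MonoidAlgebra.coeff_mul_apply_left, Finsupp.sum,
      ← Finset.add_sum_erase _ _ hg₀mem, inv_mul_cancel_left] at h1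
    have hy0 : β.coeff y ≠ 0 := Finsupp.mem_support_iff.1 hy
    have hmain : α.coeff g₀ * β.coeff y ≠ 0 := mul_ne_zero hg₀ hy0
    have hsum : ∑ g ∈ α.coeff.support.erase g₀, α.coeff g * β.coeff (g⁻¹ * (g₀ * y)) ≠ 0 := by
      intro h
      rw [h, add_zero] at h1
      exact hmain h1
    obtain ⟨g, hg, hgne⟩ := Finset.exists_ne_zero_of_sum_ne_zero hsum
    have hg' := Finset.mem_erase.1 hg
    have hβne : β.coeff (g⁻¹ * (g₀ * y)) ≠ 0 := right_ne_zero_of_mul hgne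
    refine ⟨g₀⁻¹ * g, Subsemigroup.subset_closure
      ⟨g, ⟨Finsupp.mem_support_iff.1 hg'.2, hg'.1⟩, rfl⟩, ?_⟩
    rw [Finsupp.mem_support_iff]
    have : (g₀⁻¹ * g)⁻¹ * y = g⁻¹ * (g₀ * y) := by group
    rw [this]
    exact hβne
  let r : β.coeff.support → β.coeff.support → Prop :=
    fun x y => ∃ s ∈ T, (x : G) = s⁻¹ * (y : G)
  have htrans : IsTrans β.coeff.support r := ⟨by
    rintro x y z ⟨s, hs, hxy⟩ ⟨t, ht, hyz⟩
    refine ⟨t * s, T.mul_mem ht hs, ?_⟩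
    rw [hxy, hyz]; group⟩
  have hirrefl : Std.Irrefl r := ⟨by
    rintro x ⟨s, hs, hx⟩
    have : s = 1 := by
      have h2 : (1 : G) * (x : G) = s⁻¹ * (x : G) := by rw [one_mul]; exact hx
      have h3 := mul_right_cancel h2
      exact inv_eq_one.1 h3.symm
    exact hS (this ▸ hs)⟩
  have hwf : WellFounded r := Finite.wellFounded_of_trans_of_irrefl r
  obtain ⟨y₀, hy₀⟩ := hne
  obtain ⟨m, -, hm⟩ := hwf.has_min Set.univ ⟨⟨y₀, hy₀⟩, trivial⟩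
  obtain ⟨s, hs, hsm⟩ := hstep m.1 m.2
  exact hm ⟨s⁻¹ * m.1, hsm⟩ trivial ⟨s, hs, rfl⟩

theorem oneSided_right {K G : Type*} [Ring K] [NoZeroDivisors K] [Group G]
    (α β : MonoidAlgebra K G) (g₀ : G) (hg₀ : α.coeff g₀ ≠ 0)
    (hS : (1 : G) ∉ Subsemigroup.closure
      ((fun g => g₀⁻¹ * g) '' {g : G | α.coeff g ≠ 0 ∧ g ≠ g₀}))
    (hprod : β * α = 0) : β = 0 := by
  classical
  by_contra hβ
  set T := Subsemigroup.closure ((fun g => g₀⁻¹ * g) '' {g : G | α.coeff g ≠ 0 ∧ g ≠ g₀})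
    with hT
  have hne : β.coeff.support.Nonempty := by
    rw [Finsupp.support_nonempty_iff]
    intro h
    exact hβ (MonoidAlgebra.coeff_eq_zero.1 h)
  have hstep : ∀ y ∈ β.coeff.support, ∃ s ∈ T, y * g₀ * s⁻¹ * g₀⁻¹ ∈ β.coeff.support := by
    intro y hy
    have h1 : (β * α).coeff (y * g₀) = 0 := by rw [hprod]; rfl
    have hg₀mem : g₀ ∈ α.coeff.support := Finsupp.mem_support_iff.2 hg₀
    rw [MonoidAlgebra.coeff_mul_apply_right, Finsupp.sum,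
      ← Finset.add_sum_erase _ _ hg₀mem, mul_inv_cancel_right] at h1
    have hy0 : β.coeff y ≠ 0 := Finsupp.mem_support_iff.1 hy
    have hmain : β.coeff y * α.coeff g₀ ≠ 0 := mul_ne_zero hy0 hg₀
    have hsum : ∑ g ∈ α.coeff.support.erase g₀, β.coeff (y * g₀ * g⁻¹) * α.coeff g ≠ 0 := by
      intro h
      rw [h, add_zero] at h1
      exact hmain h1
    obtain ⟨g, hg, hgne⟩ := Finset.exists_ne_zero_of_sum_ne_zero hsum
    have hg' := Finset.mem_erase.1 hg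
    have hβne : β.coeff (y * g₀ * g⁻¹) ≠ 0 := left_ne_zero_of_mul hgne
    refine ⟨g₀⁻¹ * g, Subsemigroup.subset_closure
      ⟨g, ⟨Finsupp.mem_support_iff.1 hg'.2, hg'.1⟩, rfl⟩, ?_⟩
    rw [Finsupp.mem_support_iff]
    have : y * g₀ * (g₀⁻¹ * g)⁻¹ * g₀⁻¹ = y * g₀ * g⁻¹ := by group
    rw [this]
    exact hβne
  let r : β.coeff.support → β.coeff.support → Prop :=
    fun x y => ∃ s ∈ T, (x : G) = (y : G) * g₀ * s⁻¹ * g₀⁻¹
  have htrans : IsTrans β.coeff.support r := ⟨by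
    rintro x y z ⟨s, hs, hxy⟩ ⟨t, ht, hyz⟩
    refine ⟨s * t, T.mul_mem hs ht, ?_⟩
    rw [hxy, hyz]; group⟩
  have hirrefl : Std.Irrefl r := ⟨by
    rintro x ⟨s, hs, hx⟩
    have : s = 1 := by
      have h2 : (x : G) * 1 = (x : G) * (g₀ * s⁻¹ * g₀⁻¹) := by
        rw [mul_one]
        calc (x : G) = (x : G) * g₀ * s⁻¹ * g₀⁻¹ := hx
          _ = (x : G) * (g₀ * s⁻¹ * g₀⁻¹) := by group
      have h3 : (1 : G) = g₀ * s⁻¹ * g₀⁻¹ := mul_left_cancel h2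
      have h4 : s⁻¹ = 1 := by
        have : g₀⁻¹ * (g₀ * s⁻¹ * g₀⁻¹) * g₀ = s⁻¹ := by group
        rw [← this, ← h3]; group
      exact inv_eq_one.1 h4
    exact hS (this ▸ hs)⟩
  have hwf : WellFounded r := Finite.wellFounded_of_trans_of_irrefl r
  obtain ⟨y₀, hy₀⟩ := hne
  obtain ⟨m, -, hm⟩ := hwf.has_min Set.univ ⟨⟨y₀, hy₀⟩, trivial⟩
  obtain ⟨s, hs, hsm⟩ := hstep m.1 m.2
  exact hm ⟨m.1 * g₀ * s⁻¹ * g₀⁻¹, hsm⟩ trivial ⟨s, hs, rfl⟩

end Vale.Agent.Lib.P201
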